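import Vale.Agent.P043.T2.Defs

/-! # Row T: the parameter exists -/

namespace Vale.Agent.P043.T2.H835

open MeasureTheory

theorem injOn_exp :
    Set.InjOn (fun t : ℝ => Complex.exp (2 * Real.pi * Complex.I * t)) (Set.Ioo 0 1) := by
  intro s hs t ht h
  simp only [Set.mem_Ioo] at hs ht
  have h1 : Complex.exp (2 * Real.pi * Complex.I * s) = Complex.exp (2 * Real.pi * Complex.I * t) := h
  rw [Complex.exp_eq_exp_iff_exists_int] at h1
  obtain ⟨n, hn⟩ := h1
  have hpi : (2 * (Real.pi : ℂ) * Complex.I) ≠ 0 := by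
    have := Real.pi_ne_zero
    simp [Complex.I_ne_zero, this]
  have h2 : (s : ℂ) = t + n := by
    apply mul_left_cancel₀ hpi
    rw [hn]; ring
  have h3 : s = t + n := by exact_mod_cast h2
  have h4 : n = 0 := by
    have h5 : (-1 : ℝ) < n := by linarith
    have h6 : (n : ℝ) < 1 := by linarith
    have h7 : -1 < n := by exact_mod_cast h5
    have h8 : n < 1 := by exact_mod_cast h6
    omega
  rw [h3, h4]; simp

theorem st_t : StT := by
  by_contra hcon
  have hal : (0 : ℝ) < al := by unfold al; norm_num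
  have hsub : Set.MapsTo (fun t : ℝ => Complex.exp (2 * Real.pi * Complex.I * t))
      (Set.Ioo (0 : ℝ) (al / 2 / 2000000)) {z : ℂ | IsAlgebraic ℚ z} := by
    intro t ht
    by_contra hne
    apply hcon
    refine ⟨t, ht.1, ?_, hne⟩
    have := ht.2
    rw [lt_div_iff₀ (by norm_num)] at this
    exact this
  have hinj : Set.InjOn (fun t : ℝ => Complex.exp (2 * Real.pi * Complex.I * t))
      (Set.Ioo (0 : ℝ) (al / 2 / 2000000)) := by
    apply injOn_exp.mono
    apply Set.Ioo_subset_Ioo le_rfl
    unfold al; norm_num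
  have hc : (Set.Ioo (0 : ℝ) (al / 2 / 2000000)).Countable :=
    hsub.countable_of_injOn hinj (Algebraic.countable ℚ ℂ)
  have hz := hc.measure_zero volume
  rw [Real.volume_Ioo, ENNReal.ofReal_eq_zero] at hz
  unfold al at hz
  norm_num at hz

end Vale.Agent.P043.T2.H835
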